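import Vale.Agent.P025.R2.H222.Bd

/-!
# G-LA-b (helper222): the polynomials `Q`, `Φ`, the data of helper507, irreducibility
-/

universe u v

namespace P025H222

open Polynomial P025H373

noncomputable section

set_option linter.unusedSectionVars false

section Pol

variable {C : Type u} [Field C]

/-- `Q = Y₀^h (1 + ρ t)^h - 1` -/
def Qp (h : ℕ) (Y0 ρ : C) : C[X] := Polynomial.C (Y0 ^ h) * (1 + Polynomial.C ρ * X) ^ h - 1

/-- `Φ = (1 - κ)(1 + ρ t) + κ (1 + ρ t)^(h+1)` -/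
def Ph (h : ℕ) (κ ρ : C) : C[X] :=
  Polynomial.C (1 - κ) * (1 + Polynomial.C ρ * X) + Polynomial.C κ * (1 + Polynomial.C ρ * X) ^ (h + 1)

lemma Ph_eq {h : ℕ} {κ Y0 : C} (ρ : C) (hY : Y0 ^ h * (κ - 1) = κ) :
    Ph h κ ρ = Polynomial.C (κ - 1) * (1 + Polynomial.C ρ * X) * Qp h Y0 ρ := by
  have h1 : (Polynomial.C κ : C[X]) = Polynomial.C (Y0 ^ h) * Polynomial.C (κ - 1) := by
    rw [← Polynomial.C_mul, hY]
  rw [Ph, Qp]
  have h2 : (Polynomial.C (1 - κ) : C[X]) = - Polynomial.C (κ - 1) := by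
    rw [← Polynomial.C_neg]; congr 1; ring
  rw [h2, h1]
  ring

lemma one_add_ne_zero {ρ : C} : (1 + Polynomial.C ρ * X : C[X]) ≠ 0 := by
  intro h
  have := congrArg (Polynomial.eval 0) h
  simp at this

lemma Qp_ne_zero {h : ℕ} (hh : h ≠ 0) {Y0 ρ : C} (hρ : ρ ≠ 0) : Qp h Y0 ρ ≠ 0 := by
  intro h0
  have := congrArg (Polynomial.eval (-ρ⁻¹)) h0
  rw [Qp, eval_sub, eval_mul, eval_pow, eval_add, eval_mul, eval_C, eval_C, eval_X, eval_one,
    mul_neg, mul_inv_cancel₀ hρ, add_neg_cancel, zero_pow hh, mul_zero, eval_zero] at this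
  norm_num at this

lemma Ph_ne_zero {h : ℕ} (hh : h ≠ 0) {κ Y0 ρ : C} (hY : Y0 ^ h * (κ - 1) = κ) (hρ : ρ ≠ 0)
    (hκ : κ ≠ 1) : Ph h κ ρ ≠ 0 := by
  rw [Ph_eq ρ hY]
  exact mul_ne_zero (mul_ne_zero (Polynomial.C_ne_zero.2 (sub_ne_zero.2 hκ)) one_add_ne_zero)
    (Qp_ne_zero hh hρ)

/-- `Φ` is not a `p`-th power in `C(t)` -/
lemma not_pow_Ph {p h : ℕ} (hp : 1 < p) (hh : h ≠ 0) {κ Y0 ρ : C} (hY : Y0 ^ h * (κ - 1) = κ)
    (hρ : ρ ≠ 0) (hκ : κ ≠ 1) (B : RatFunc C) :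
    B ^ p ≠ algebraMap C[X] (RatFunc C) (Ph h κ ρ) := by
  intro hB
  have hint : IsIntegral C[X] B := by
    refine IsIntegral.of_pow (Nat.lt_of_succ_lt hp) ?_
    rw [hB]
    exact isIntegral_algebraMap
  obtain ⟨G, rfl⟩ := (IsIntegrallyClosed.isIntegral_iff).1 hint
  rw [← map_pow] at hB
  have hG : G ^ p = Ph h κ ρ := RatFunc.algebraMap_injective C hB
  have e1 : Polynomial.eval (-ρ⁻¹) (1 + Polynomial.C ρ * X : C[X]) = 0 := by
    rw [eval_add, eval_mul, eval_C, eval_X, eval_one, mul_neg, mul_inv_cancel₀ hρ, add_neg_cancel]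
  have h1 : Polynomial.eval (-ρ⁻¹) G = 0 := by
    have := congrArg (Polynomial.eval (-ρ⁻¹)) hG
    rw [Ph_eq ρ hY, eval_pow, eval_mul, eval_mul, e1, mul_zero, zero_mul] at this
    exact pow_eq_zero_iff (by omega) |>.1 this
  have e2 : (1 + Polynomial.C ρ * X : C[X]) = Polynomial.C ρ * (X - Polynomial.C (-ρ⁻¹)) := by
    rw [mul_sub, ← Polynomial.C_mul, mul_neg, mul_inv_cancel₀ hρ]
    simp
    ring
  obtain ⟨G', rfl⟩ := Polynomial.dvd_iff_isRoot.2 h1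
  obtain ⟨k, rfl⟩ := Nat.exists_eq_add_of_le hp
  have h3 : (X - Polynomial.C (-ρ⁻¹)) ^ (k + 1) * (G' ^ (1 + 1 + k)) =
      Polynomial.C (κ - 1) * Polynomial.C ρ * Qp h Y0 ρ := by
    have h4 : (X - Polynomial.C (-ρ⁻¹) : C[X]) ≠ 0 := X_sub_C_ne_zero _
    apply mul_left_cancel₀ h4
    rw [Ph_eq ρ hY, e2] at hG
    have h5 : (1 + 1 + k) = (k + 1) + 1 := by ring
    rw [h5] at hG ⊢
    calc _ = ((X - Polynomial.C (-ρ⁻¹)) * G') ^ (k + 1 + 1) := by rw [mul_pow]; ring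
      _ = _ := by rw [hG]; ring
  have h6 := congrArg (Polynomial.eval (-ρ⁻¹)) h3
  rw [Qp, eval_mul, eval_pow, eval_sub, eval_X, eval_C, sub_self, zero_pow (by omega), zero_mul,
    eval_mul, eval_mul, eval_C, eval_C, eval_sub, eval_mul, eval_pow, e1, zero_pow hh, mul_zero,
    eval_one] at h6
  have h7 : (κ - 1) * ρ = 0 := by linear_combination h6
  rcases mul_eq_zero.1 h7 with h8 | h8
  · exact hκ (sub_eq_zero.1 h8)
  · exact hρ h8

end Pol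

variable {C : Type u} [NormedField C] [IsUltrametricDist C]

/-- the data of helper507 -/
structure Dat (p h l : ℕ) (ζ κ Y0 ρ : C) (A V : C[X]) : Prop where
  kne : κ ≠ 1
  yne : Y0 ≠ 0
  rne : ρ ≠ 0
  yh : Y0 ^ h * (κ - 1) = κ
  hq : gp (Qp h Y0 ρ) ≤ ‖(h : C)‖
  hv : Ph h κ ρ - A ^ p = X ^ l * V
  a0 : A.coeff 0 = 1
  a1 : gp (A - 1) < 1
  v1 : ∀ i, 1 ≤ i → ‖V.coeff i‖ < ‖V.coeff 0‖
  gap : ‖ζ - 1‖ ^ p < ‖V.coeff 0‖

variable {p h l : ℕ} {ζ κ Y0 ρ : C} {A V : C[X]}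

lemma Dat.gpV (d : Dat p h l ζ κ Y0 ρ A V) : gp V = ‖V.coeff 0‖ := by
  refine le_antisymm ?_ (norm_coeff_le V 0)
  rw [gp_le_iff]
  intro i
  rcases Nat.eq_zero_or_pos i with rfl | hi
  · exact le_rfl
  · exact (d.v1 i hi).le

lemma Dat.v0 (d : Dat p h l ζ κ Y0 ρ A V) : 0 < ‖V.coeff 0‖ :=
  (pow_nonneg (norm_nonneg _) _).trans_lt d.gap

lemma Dat.vne (d : Dat p h l ζ κ Y0 ρ A V) : V ≠ 0 := by
  rintro rfl
  have := d.v0
  simp at this

/-- `V` has no zero in the closed unit disc -/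
lemma Dat.eval_V (d : Dat p h l ζ κ Y0 ρ A V) {a : C} (ha : ‖a‖ ≤ 1) : V.eval a ≠ 0 := by
  intro h0
  rw [eval_eq_sum_range, Finset.sum_range_succ'] at h0
  have h1 : V.coeff 0 = - ∑ k ∈ Finset.range V.natDegree, V.coeff (k + 1) * a ^ (k + 1) := by
    rw [pow_zero, mul_one] at h0
    linear_combination h0
  have h2 : ‖∑ k ∈ Finset.range V.natDegree, V.coeff (k + 1) * a ^ (k + 1)‖ < ‖V.coeff 0‖ := by
    rcases Finset.eq_empty_or_nonempty (Finset.range V.natDegree) with h | h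
    · rw [h, Finset.sum_empty, norm_zero]
      exact d.v0
    · obtain ⟨i, -, hi⟩ := IsUltrametricDist.exists_norm_finsetSum_le_of_nonempty h
        (fun k => V.coeff (k + 1) * a ^ (k + 1))
      refine hi.trans_lt ?_
      rw [norm_mul, norm_pow]
      exact (mul_le_of_le_one_right (norm_nonneg _) (pow_le_one₀ (norm_nonneg _) ha)).trans_lt
        (d.v1 _ (by omega))
  rw [h1, norm_neg] at h2
  exact lt_irrefl _ (by rwa [← norm_neg, ← h1] at h2)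

lemma Dat.gpA (d : Dat p h l ζ κ Y0 ρ A V) : gp A = 1 := by
  have h1 : A = (A - 1) + 1 := by ring
  have h2 := gp_add_le_max (A - 1) 1
  rw [← h1, gp_one, max_eq_right d.a1.le] at h2
  refine le_antisymm h2 ?_
  have h3 := norm_coeff_le A 0
  rwa [d.a0, norm_one] at h3

end

end P025H222
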