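import Vale.Agent.P025.R2.H222.Ev2
import Vale.Agent.P025.R2.H552.Bdry

/-!
# G-LA-b (helper222): boundary statements, `E` finite over `F0 C`
-/

universe u v

namespace P025H222

open Polynomial P025H373 P025H552

noncomputable section

set_option linter.unusedSectionVars false

section Est

variable {E : Type v} [NormedField E] [IsUltrametricDist E]

lemma norm_zpow_sub {p : ℕ} {ζ : E} (hζ : IsPrimitiveRoot ζ p) (hp : p ≠ 0) {ω : E}
    (hω : ω ^ p = 1) : ‖ω - 1‖ ≤ ‖ζ - 1‖ ∧ ‖ω‖ = 1 := by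
  have : NeZero p := ⟨hp⟩
  have h0 : ∀ x : E, x ^ p = 1 → ‖x‖ = 1 := by
    intro x hx
    have := congrArg norm hx
    rw [norm_pow, norm_one] at this
    exact (pow_eq_one_iff_of_nonneg (norm_nonneg _) hp).1 this
  refine ⟨?_, h0 ω hω⟩
  obtain ⟨i, -, rfl⟩ := hζ.eq_pow_of_pow_eq_one hω
  rw [← geom_sum_mul, norm_mul]
  refine mul_le_of_le_one_left (norm_nonneg _) ?_
  refine IsUltrametricDist.norm_sum_le_of_forall_le_of_nonneg zero_le_one fun j _ => ?_
  rw [norm_pow, h0 ζ hζ.pow_eq_one, one_pow]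

/-- `‖ζ - 1‖ < ‖T - ω A‖` -/
lemma norm_sub_lt {p : ℕ} (hp : p ≠ 0) {ζ : E} (hζ : IsPrimitiveRoot ζ p) {T A : E}
    (hA : ‖A‖ = 1) (hT : ‖ζ - 1‖ ^ p < ‖T ^ p - A ^ p‖) {ω : E} (hω : ω ^ p = 1) :
    ‖ζ - 1‖ < ‖T - ω * A‖ := by
  by_contra hcon
  push Not at hcon
  have h1 : ∀ ω' : E, ω' ^ p = 1 → ‖T - ω' * A‖ ≤ ‖ζ - 1‖ := by
    intro ω' hω'
    have h2 : T - ω' * A = (T - ω * A) + (ω - ω') * A := by ring
    have h3 : ‖(ω - ω') * A‖ ≤ ‖ζ - 1‖ := by
      obtain ⟨h4, h5⟩ := norm_zpow_sub hζ hp (ω := ω / ω') (by rw [div_pow, hω, hω', div_one])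
      obtain ⟨-, h6⟩ := norm_zpow_sub hζ hp hω'
      have h7 : ω' ≠ 0 := by
        rintro rfl
        rw [norm_zero] at h6
        exact zero_ne_one h6
      rw [norm_mul, hA, mul_one]
      rwa [div_sub_one h7, norm_div, h6, div_one] at h4
    rw [h2]
    exact (IsUltrametricDist.norm_add_le_max _ _).trans (max_le hcon h3)
  have hpos : 0 < p := Nat.pos_of_ne_zero hp
  rw [hζ.pow_sub_pow_eq_prod_sub_mul _ _ hpos, norm_prod] at hT
  refine absurd hT (not_lt.2 ?_)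
  calc ∏ b ∈ nthRootsFinset p (1 : E), ‖T - b * A‖
      ≤ ∏ _b ∈ nthRootsFinset p (1 : E), ‖ζ - 1‖ :=
        Finset.prod_le_prod (fun _ _ => norm_nonneg _) fun b hb =>
          h1 b ((mem_nthRootsFinset hpos _).1 hb)
    _ = ‖ζ - 1‖ ^ p := by rw [Finset.prod_const, hζ.card_nthRootsFinset]

end Est

variable {C : Type u} [NontriviallyNormedField C] [IsUltrametricDist C] [CompleteSpace C]
  [IsAlgClosed C]

lemma norm_aeval_le_gp {E : Type v} [NormedField E] [IsUltrametricDist E] [Algebra C E]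
    (hn : ∀ c : C, ‖algebraMap C E c‖ = ‖c‖) {τ : E} (hτ : ‖τ‖ ≤ 1) (Q : C[X]) :
    ‖aeval τ Q‖ ≤ gp Q := by
  rw [aeval_eq_sum_range]
  refine IsUltrametricDist.norm_sum_le_of_forall_le_of_nonneg (gp_nonneg Q) fun i _ => ?_
  rw [Algebra.smul_def, norm_mul, hn, norm_pow]
  exact (mul_le_of_le_one_right (norm_nonneg _) (pow_le_one₀ (norm_nonneg _) hτ)).trans
    (norm_coeff_le Q i)

/-- evaluation `F2 C → E` at `τ`, `‖τ‖ > 1`, for `E` finite over `F0 C` -/
theorem exists_hom_F0 {E : Type v} [Field E] [Algebra (F0 C) E] [FiniteDimensional (F0 C) E]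
    [Algebra C E] [IsScalarTower C (F0 C) E] {τ : E} {Q : C[X]} {c : F0 C} (hQ : gp Q < ‖c‖)
    (hτ : aeval τ Q = algebraMap (F0 C) E c) (htr : ∀ P : C[X], P ≠ 0 → aeval τ⁻¹ P ≠ 0) :
    ∃ φ : F2 C →ₐ[C] E, φ (iA2 sA) = τ⁻¹ := by
  let i1 : NontriviallyNormedField (F0 C) := ntF0
  let i2 : NormedField E := spectralNorm.normedField (F0 C) E
  let i3 : NormedAlgebra (F0 C) E := spectralNorm.normedAlgebra (F0 C) E
  have i4 : CompleteSpace E := spectralNorm.completeSpace (F0 C) E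
  have i5 : IsUltrametricDist E :=
    IsUltrametricDist.isUltrametricDist_of_isNonarchimedean_norm
      (isNonarchimedean_spectralNorm (K := F0 C) (L := E))
  have hnF : ∀ x : F0 C, ‖algebraMap (F0 C) E x‖ = ‖x‖ := fun x => norm_algebraMap' E x
  have hnC : ∀ x : C, ‖algebraMap C E x‖ = ‖x‖ := fun x => by
    rw [IsScalarTower.algebraMap_apply C (F0 C) E, hnF, norm_algebraMap_C]
  have h1 : 1 < ‖τ‖ := by
    by_contra hcon
    push Not at hcon
    have h2 := norm_aeval_le_gp hnC hcon Q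
    rw [hτ, hnF] at h2
    exact absurd hQ (not_lt.2 h2)
  have h2 : ‖τ⁻¹‖ < 1 := by
    rw [norm_inv]
    exact inv_lt_one_of_one_lt₀ h1
  obtain ⟨φ, -, hφ⟩ := exists_ev hnC h2 htr
  exact ⟨φ, hφ⟩

/-- over the boundary `(T - A)/(T - ζ A)` is an `l`-th power -/
theorem exists_root_bd {p l : ℕ} (hp : p.Prime) (hpC : ‖(p : C)‖ < 1) (hl : l.Prime) (hlp : l ≠ p)
    {ζ : C} (hζ : IsPrimitiveRoot ζ p) {E : Type v} [Field E] [Algebra (F0 C) E]
    [FiniteDimensional (F0 C) E] [Algebra C E] [IsScalarTower C (F0 C) E] {T : E} {A x : F0 C}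
    (hA : ‖A‖ = 1) (hT : T ^ p - (algebraMap (F0 C) E A) ^ p = algebraMap (F0 C) E x)
    (hx : ‖ζ - 1‖ ^ p < ‖x‖) :
    T - algebraMap C E ζ * algebraMap (F0 C) E A ≠ 0 ∧
    ∃ z : E, z ≠ 0 ∧ z ^ l = (T - algebraMap (F0 C) E A) /
      (T - algebraMap C E ζ * algebraMap (F0 C) E A) := by
  let i1 : NontriviallyNormedField (F0 C) := ntF0
  let i2 : NormedField E := spectralNorm.normedField (F0 C) E
  let i3 : NormedAlgebra (F0 C) E := spectralNorm.normedAlgebra (F0 C) E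
  have i4 : CompleteSpace E := spectralNorm.completeSpace (F0 C) E
  have i5 : IsUltrametricDist E :=
    IsUltrametricDist.isUltrametricDist_of_isNonarchimedean_norm
      (isNonarchimedean_spectralNorm (K := F0 C) (L := E))
  have hnF : ∀ x : F0 C, ‖algebraMap (F0 C) E x‖ = ‖x‖ := fun x => norm_algebraMap' E x
  have hnC : ∀ x : C, ‖algebraMap C E x‖ = ‖x‖ := fun x => by
    rw [IsScalarTower.algebraMap_apply C (F0 C) E, hnF, norm_algebraMap_C]
  let i6 : NormedAlgebra C E :=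
    { (inferInstance : Algebra C E) with
      norm_smul_le := fun c x => by rw [Algebra.smul_def, norm_mul, hnC] }
  have hζ' : IsPrimitiveRoot (algebraMap C E ζ) p :=
    hζ.map_of_injective (algebraMap C E).injective
  have hn1 : ‖algebraMap C E ζ - 1‖ = ‖ζ - 1‖ := by
    rw [← hnC (ζ - 1), map_sub, map_one]
  set A' : E := algebraMap (F0 C) E A with hA'
  have hA1 : ‖A'‖ = 1 := by rw [hA', hnF, hA]
  have h2 : ‖algebraMap C E ζ - 1‖ < ‖T - algebraMap C E ζ * A'‖ := by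
    refine norm_sub_lt hp.ne_zero hζ' hA1 ?_ hζ'.pow_eq_one
    rw [hT, hnF, hn1]
    exact hx
  set Y := T - algebraMap C E ζ * A' with hY
  have hY0 : Y ≠ 0 := by
    intro h
    rw [h, norm_zero] at h2
    exact absurd h2 (not_lt.2 (norm_nonneg _))
  refine ⟨hY0, ?_⟩
  have h3 : ‖(T - A') / Y - 1‖ < 1 := by
    have h4 : (T - A') / Y - 1 = (algebraMap C E ζ - 1) * A' / Y := by
      rw [div_sub_one hY0, hY]; congr 1; ring
    rw [h4, norm_div, norm_mul, hA1, mul_one, div_lt_one (norm_pos_iff.2 hY0)]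
    exact h2
  have hl1 : ‖(l : C)‖ = 1 := norm_prime_ne hp hl hlp hpC
  obtain ⟨z, -, hz, -⟩ := exists_pow_eq (C := C) (A := E) (⊤ : Subring E) isClosed_univ
    (fun _ => Subring.mem_top _) (n := l) (x := (T - A') / Y)
    (by rw [← norm_pos_iff, hl1]; exact one_pos) (Subring.mem_top _)
    (by rw [hl1, one_pow]; exact h3)
  refine ⟨z, ?_, hz⟩
  rintro rfl
  rw [zero_pow hl.ne_zero] at hz
  rw [← hz, zero_sub, norm_neg, norm_one] at h3
  exact lt_irrefl _ h3

end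

end P025H222
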