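import Vale.Agent.P025.R2.H222.Plc
import Vale.Agent.P025.R2.H572.LAaAdj
import Vale.Agent.P025.R2.H507.LocDef

/-!
# P025 G-LA-b (helper222): definitions `LL`, `BB`, `IsPsi`
-/

universe u

namespace P025H222

open Polynomial P025H373 P025H552 TensorProduct P025H572

noncomputable section

section Def

variable {C : Type u} [NontriviallyNormedField C] [IsUltrametricDist C] [CompleteSpace C]
  [IsAlgClosed C] [CharZero C]

/-- `L = C(t)(T)`, `T ^ p = Φ` -/
abbrev LL (C : Type u) [Field C] (p h : ℕ) (κ ρ : C) : Type u :=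
  AdjoinRoot (X ^ p - Polynomial.C (algebraMap C[X] (RatFunc C) (Ph h κ ρ)) : (RatFunc C)[X])

/-- the model algebra `B = F2[y] / (y ^ q - (1 + b s ^ e))` -/
abbrev BB (q e : ℕ) (b : C) : Type u :=
  AdjoinRoot (X ^ q - Polynomial.C (xb b e) : (F2 C)[X])

/-- `ψ : L → B`, `t ↦ (y ^ p / Y0 - 1) / ρ`, `T ↦ γ s ^ e' y` -/
structure IsPsi (p h : ℕ) (κ Y0 ρ γ b : C) (q e e' : ℕ) (ψ : LL C p h κ ρ →+* BB q e b) :
    Prop where
  cst : ∀ c : C, ψ (algebraMap C (LL C p h κ ρ) c) = cst q (xb b e) c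
  tt : P025H572.cst q (xb b e) Y0 * (1 + P025H572.cst q (xb b e) ρ *
    ψ (algebraMap (RatFunc C) (LL C p h κ ρ) RatFunc.X)) = AdjoinRoot.root _ ^ p
  TT : ψ (AdjoinRoot.root _) =
    P025H572.cst q (xb b e) γ * AdjoinRoot.of _ (s2 C ^ e') * AdjoinRoot.root _

/-- the coordinate `s = 1/t` of `F2` is the one of `Ev.lean` -/
theorem s2_eq : s2 C = iA2 sA := by
  apply (algebraMap (F2 C) (F0 C)).injective
  rw [coe_s2]
  rfl

end Def

end

end P025H222
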