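import Vale.Agent.P025.R2.H552.F2emb

/-!
# G-LA-b (helper222): evaluation of `A2 C`, `F2 C` at a point `s`, `‖s‖ < 1`, of a complete field
-/

universe u v

namespace P025H222

open Polynomial P025H373 P025H552

noncomputable section

set_option linter.unusedSectionVars false

variable {C : Type u} [NontriviallyNormedField C] [IsUltrametricDist C] [CompleteSpace C]
  [IsAlgClosed C]

lemma norm_coe_sA : ‖((sA (C := C) : A2 C) : F0 C)‖ = 1 := by
  have h : ‖tt C‖ = 1 := norm_tt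
  change ‖(tt C)⁻¹‖ = 1
  rw [norm_inv, h, inv_one]

lemma norm_D_le (x : A2 C) : ‖(((taylorData (C := C)).D x : A2 C) : F0 C)‖ ≤ ‖(x : F0 C)‖ := by
  have h1 := congrArg (fun z : A2 C => (z : F0 C)) ((taylorData (C := C)).D_spec x)
  have h2 : ((sA (C := C) : A2 C) : F0 C) * (((taylorData (C := C)).D x : A2 C) : F0 C) =
      (x : F0 C) - algebraMap C (F0 C) (evInf C x) := by
    rw [eq_sub_iff_add_eq']
    exact h1.symm
  have h3 : ‖(((taylorData (C := C)).D x : A2 C) : F0 C)‖ =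
      ‖(x : F0 C) - algebraMap C (F0 C) (evInf C x)‖ := by
    rw [← h2, norm_mul, norm_coe_sA, one_mul]
  rw [h3]
  rw [sub_eq_add_neg]
  refine (IsUltrametricDist.norm_add_le_max _ _).trans (max_le le_rfl ?_)
  rw [norm_neg, norm_algebraMap_C]
  exact norm_evInf_le x

lemma norm_coeff_tay2_le (x : A2 C) (n : ℕ) :
    ‖PowerSeries.coeff n (tay2 x)‖ ≤ ‖(x : F0 C)‖ := by
  have h : ‖(((taylorData (C := C)).D^[n] x : A2 C) : F0 C)‖ ≤ ‖(x : F0 C)‖ := by
    induction n with
    | zero => exact le_rfl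
    | succ n ih =>
      rw [Function.iterate_succ_apply']
      exact (norm_D_le _).trans ih
  have h2 : PowerSeries.coeff n (tay2 x) = evInf C ((taylorData (C := C)).D^[n] x) :=
    (taylorData (C := C)).coeff_tay x n
  rw [h2]
  exact (norm_evInf_le _).trans h

section Ev

variable {E : Type v} [NormedField E] [IsUltrametricDist E] [CompleteSpace E] [Algebra C E]

/-- term of the series -/
def trm (s : E) (f : PowerSeries C) (n : ℕ) : E :=
  algebraMap C E (PowerSeries.coeff n f) * s ^ n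

lemma norm_trm_le (hn : ∀ c : C, ‖algebraMap C E c‖ = ‖c‖) (s : E) {f : PowerSeries C} {M : ℝ}
    (hf : ∀ n, ‖PowerSeries.coeff n f‖ ≤ M) (n : ℕ) : ‖trm s f n‖ ≤ M * ‖s‖ ^ n := by
  rw [trm, norm_mul, hn, norm_pow]
  exact mul_le_mul_of_nonneg_right (hf n) (pow_nonneg (norm_nonneg _) _)

lemma summable_norm_trm (hn : ∀ c : C, ‖algebraMap C E c‖ = ‖c‖) {s : E} (hs : ‖s‖ < 1)
    {f : PowerSeries C} {M : ℝ} (hf : ∀ n, ‖PowerSeries.coeff n f‖ ≤ M) :
    Summable fun n => ‖trm s f n‖ := by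
  refine Summable.of_nonneg_of_le (fun n => norm_nonneg _) (norm_trm_le hn s hf) ?_
  exact (summable_geometric_of_lt_one (norm_nonneg _) hs).mul_left M

lemma summable_trm (hn : ∀ c : C, ‖algebraMap C E c‖ = ‖c‖) {s : E} (hs : ‖s‖ < 1)
    {f : PowerSeries C} {M : ℝ} (hf : ∀ n, ‖PowerSeries.coeff n f‖ ≤ M) :
    Summable (trm s f) := (summable_norm_trm hn hs hf).of_norm

lemma norm_tsum_le_of {f : ℕ → E} {M : ℝ} (hf : ∀ n, ‖f n‖ ≤ M) (hs : Summable f) :
    ‖∑' n, f n‖ ≤ M := by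
  have h0 : 0 ≤ M := (norm_nonneg _).trans (hf 0)
  have h1 : Filter.Tendsto (fun t : Finset ℕ => ‖∑ n ∈ t, f n‖) Filter.atTop
      (nhds ‖∑' n, f n‖) := hs.hasSum.norm
  refine le_of_tendsto h1 (Filter.Eventually.of_forall fun t => ?_)
  exact IsUltrametricDist.norm_sum_le_of_forall_le_of_nonneg h0 fun i _ => hf i

/-- evaluation of a Taylor series at `s` -/
def evA (hn : ∀ c : C, ‖algebraMap C E c‖ = ‖c‖) {s : E} (hs : ‖s‖ < 1) : A2 C →ₐ[C] E where
  toFun x := ∑' n, trm s (tay2 x) n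
  map_one' := by
    rw [map_one, tsum_eq_single 0]
    · simp [trm]
    · intro n hn
      simp [trm, PowerSeries.coeff_one, hn]
  map_zero' := by
    rw [map_zero]
    simp [trm]
  map_add' x y := by
    rw [← (summable_trm hn hs (norm_coeff_tay2_le x)).tsum_add
      (summable_trm hn hs (norm_coeff_tay2_le y))]
    refine tsum_congr fun n => ?_
    rw [trm, trm, trm, map_add, map_add, map_add, add_mul]
  map_mul' x y := by
    rw [tsum_mul_tsum_eq_tsum_sum_antidiagonal_of_summable_norm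
      (summable_norm_trm hn hs (norm_coeff_tay2_le x))
      (summable_norm_trm hn hs (norm_coeff_tay2_le y))]
    refine tsum_congr fun n => ?_
    rw [trm, map_mul, PowerSeries.coeff_mul, map_sum, Finset.sum_mul]
    refine Finset.sum_congr rfl fun k hk => ?_
    rw [trm, trm, map_mul, ← Finset.HasAntidiagonal.mem_antidiagonal.1 hk, pow_add]
    ring
  commutes' c := by
    rw [AlgHom.commutes, tsum_eq_single 0]
    · simp [trm]
    · intro n hn
      simp [trm, PowerSeries.coeff_C, hn]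

variable (hn : ∀ c : C, ‖algebraMap C E c‖ = ‖c‖) {s : E} (hs : ‖s‖ < 1)

lemma evA_apply (x : A2 C) : evA hn hs x = ∑' n, trm s (tay2 x) n := rfl

lemma evA_s : evA hn hs sA = s := by
  rw [evA_apply, tay2_s, tsum_eq_single 1]
  · simp [trm]
  · intro n hn
    simp [trm, PowerSeries.coeff_X, hn]

lemma norm_evA_le (x : A2 C) : ‖evA hn hs x‖ ≤ ‖(x : F0 C)‖ := by
  rw [evA_apply]
  refine norm_tsum_le_of (fun n => ?_) (summable_trm hn hs (norm_coeff_tay2_le x))
  refine (norm_trm_le hn s (norm_coeff_tay2_le x) n).trans ?_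
  exact mul_le_of_le_one_right (norm_nonneg _) (pow_le_one₀ (norm_nonneg _) hs.le)

lemma evA_aeval (P : C[X]) : evA hn hs (aeval sA P) = aeval s P := by
  rw [← Polynomial.aeval_algHom_apply, evA_s]

/-- injectivity, if `s` is transcendental -/
lemma evA_ne_zero (htr : ∀ P : C[X], P ≠ 0 → aeval s P ≠ 0) {x : A2 C} (hx : x ≠ 0) :
    evA hn hs x ≠ 0 := by
  have hx0 : (x : F0 C) ≠ 0 := fun h => hx (Subtype.ext h)
  obtain ⟨g, hg, hg0, h, hh, hn1, e⟩ := weierstrass_A2 x.2 hx0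
  obtain ⟨P, S, hS, hd, hc, rfl⟩ := hg
  have hd' : P.natDegree ≤ S.natDegree := natDegree_le_natDegree hd
  have hP0 : P ≠ 0 := by
    rintro rfl
    rw [map_zero, zero_div] at hg0
    exact hg0 rfl
  rw [eq_div_poly, ratFunc_eq_div hd' le_rfl] at e
  have hS0 : ((aeval (sA (C := C)) (S.reflect S.natDegree) : A2 C) : F0 C) ≠ 0 := by
    rw [aeval_reflect le_rfl]
    exact mul_ne_zero (aeval_tt_ne_zero hS.ne_zero)
      (pow_ne_zero _ (inv_ne_zero P025H552.tt_ne_zero))
  have e2 : x * aeval sA (S.reflect S.natDegree) =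
      aeval sA (P.reflect S.natDegree) * (1 + ⟨h, hh⟩) := by
    apply Subtype.ext
    change (x : F0 C) * ((aeval (sA (C := C)) (S.reflect S.natDegree) : A2 C) : F0 C) =
      ((aeval (sA (C := C)) (P.reflect S.natDegree) : A2 C) : F0 C) * (1 + h)
    rw [e, div_mul_eq_mul_div, div_mul_cancel₀ _ hS0]
  have e3 : evA hn hs (1 + (⟨h, hh⟩ : A2 C)) ≠ 0 := by
    intro h0
    rw [map_add, map_one] at h0
    have h2 : ‖evA hn hs ⟨h, hh⟩‖ < 1 := (norm_evA_le hn hs _).trans_lt hn1
    have h3 : evA hn hs ⟨h, hh⟩ = -1 := by linear_combination h0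
    rw [h3, norm_neg, norm_one] at h2
    exact lt_irrefl _ h2
  intro h0
  have e4 := congrArg (evA hn hs) e2
  rw [map_mul, map_mul, h0, zero_mul, evA_aeval] at e4
  exact mul_ne_zero (htr _ (by rwa [Ne, reflect_eq_zero_iff])) e3 e4.symm

end Ev

section Lift

variable {E : Type v} [Field E] [Algebra C E]

instance fracA2 : letI := (iA2 (C := C)).toRingHom.toAlgebra
    IsFractionRing (A2 C) (F2 C) := by
  let alg : Algebra (A2 C) (F2 C) := (iA2 (C := C)).toRingHom.toAlgebra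
  have h1 : FaithfulSMul (A2 C) (F2 C) :=
    (faithfulSMul_iff_algebraMap_injective _ _).2 iA2_inj
  refine IsFractionRing.of_field _ _ fun z => ?_
  obtain ⟨a, b, -, h⟩ := exists_div_A2 z
  exact ⟨a, b, h⟩

/-- an injective homomorphism of `A2 C` to a field extends to `F2 C` -/
lemma exists_lift_F2 (g : A2 C →ₐ[C] E) (hg : ∀ x, x ≠ 0 → g x ≠ 0) :
    ∃ φ : F2 C →ₐ[C] E, ∀ a : A2 C, φ (iA2 a) = g a := by
  let alg : Algebra (A2 C) (F2 C) := (iA2 (C := C)).toRingHom.toAlgebra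
  have h2 : IsFractionRing (A2 C) (F2 C) := fracA2
  have hg' : Function.Injective g.toRingHom := by
    rw [injective_iff_map_eq_zero]
    intro a ha
    by_contra h
    exact hg a h ha
  have hlift : ∀ a : A2 C, IsFractionRing.lift (K := F2 C) hg' (iA2 a) = g a := fun a =>
    IsFractionRing.lift_algebraMap hg' a
  refine ⟨⟨IsFractionRing.lift (K := F2 C) hg', fun c => ?_⟩, fun a => hlift a⟩
  have h3 : algebraMap C (F2 C) c = iA2 (algebraMap C (A2 C) c) := rfl
  change IsFractionRing.lift (K := F2 C) hg' (algebraMap C (F2 C) c) = _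
  rw [h3, hlift, AlgHom.commutes]

end Lift

/-- evaluation of `F2 C` at `s` -/
lemma exists_ev {E : Type v} [NormedField E] [IsUltrametricDist E] [CompleteSpace E] [Algebra C E]
    (hn : ∀ c : C, ‖algebraMap C E c‖ = ‖c‖) {s : E} (hs : ‖s‖ < 1)
    (htr : ∀ P : C[X], P ≠ 0 → aeval s P ≠ 0) :
    ∃ φ : F2 C →ₐ[C] E, (∀ a : A2 C, φ (iA2 a) = evA hn hs a) ∧ φ (iA2 sA) = s := by
  obtain ⟨φ, hφ⟩ := exists_lift_F2 (evA hn hs) fun x hx => evA_ne_zero hn hs htr hx
  exact ⟨φ, hφ, by rw [hφ, evA_s]⟩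

end

end P025H222
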