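import Vale.Agent.P025.R2.H222.Ev

/-!
# G-LA-b (helper222): evaluation `F2 C → E1`, `E1` finite over `F1 C`
-/

universe u v

namespace P025H222

open Polynomial P025H373 P025H552

noncomputable section

set_option linter.unusedSectionVars false

variable {C : Type u} [NontriviallyNormedField C] [IsUltrametricDist C] [CompleteSpace C]
  [IsAlgClosed C]

/-- `F0 C` as a nontrivially normed field -/
abbrev ntF0 : NontriviallyNormedField (F0 C) :=
  { (inferInstance : NormedField (F0 C)) with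
    non_trivial := by
      obtain ⟨c, hc⟩ := NontriviallyNormedField.non_trivial (α := C)
      exact ⟨algebraMap C (F0 C) c, by rw [norm_algebraMap_C]; exact hc⟩ }

/-- power series in an element of `A1 C` of norm `< 1` -/
lemma tsum_mem_A1 {P : F0 C} (hP : P ∈ A1 C) (hP1 : ‖P‖ < 1) {c : ℕ → C} {M : ℝ}
    (hc : ∀ n, ‖c n‖ ≤ M) :
    Summable (fun n => algebraMap C (F0 C) (c n) * P ^ n) ∧
      ∑' n, algebraMap C (F0 C) (c n) * P ^ n ∈ A1 C := by
  have hs : Summable (fun n => algebraMap C (F0 C) (c n) * P ^ n) := by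
    refine Summable.of_norm (Summable.of_nonneg_of_le (fun n => norm_nonneg _) (fun n => ?_)
      ((summable_geometric_of_lt_one (norm_nonneg _) hP1).mul_left M))
    rw [norm_mul, norm_algebraMap_C, norm_pow]
    exact mul_le_mul_of_nonneg_right (hc n) (pow_nonneg (norm_nonneg _) _)
  refine ⟨hs, ?_⟩
  refine isClosed_A1.mem_of_tendsto hs.hasSum (Filter.Eventually.of_forall fun t => ?_)
  refine sum_mem fun n _ => ?_
  exact mul_mem (Subalgebra.algebraMap_mem _ _) (pow_mem hP _)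

section

variable {E : Type v} [NormedField E] [IsUltrametricDist E] [CompleteSpace E] [Algebra C E]
  [Algebra (F0 C) E] [IsScalarTower C (F0 C) E]

lemma evA_eq (hF : ∀ x : F0 C, ‖algebraMap (F0 C) E x‖ = ‖x‖)
    (hn : ∀ c : C, ‖algebraMap C E c‖ = ‖c‖) {s : E} (hs : ‖s‖ < 1) {e : ℕ} (he : e ≠ 0)
    {P : F0 C} (hP : P ∈ A1 C) (hPs : s ^ e = algebraMap (F0 C) E P) (x : A2 C) :
    ∃ g : ZMod e → A1 C, evA hn hs x = @Finset.sum (ZMod e) E _
      (@Finset.univ _ (@ZMod.fintype e ⟨he⟩)) fun j =>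
      s ^ (ZMod.val j) * algebraMap (F0 C) E (g j) := by
  have : NeZero e := ⟨he⟩
  have hP1 : ‖P‖ < 1 := by
    rw [← hF, ← hPs, norm_pow]
    exact pow_lt_one₀ (norm_nonneg _) hs he
  have hcont : Continuous (algebraMap (F0 C) E) :=
    (AddMonoidHomClass.isometry_of_norm (algebraMap (F0 C) E) hF).continuous
  have key : ∀ j : ZMod e, ∃ g : A1 C, ∑' m, trm s (tay2 x) (j.val + e * m) =
      s ^ (ZMod.val j) * algebraMap (F0 C) E g := by
    intro j
    obtain ⟨h1, h2⟩ := tsum_mem_A1 hP hP1 (c := fun m => PowerSeries.coeff (j.val + e * m) (tay2 x))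
      (fun m => norm_coeff_tay2_le x _)
    refine ⟨⟨_, h2⟩, ?_⟩
    change _ = s ^ (ZMod.val j) * algebraMap (F0 C) E (∑' n, _)
    rw [h1.map_tsum (algebraMap (F0 C) E) hcont, ← tsum_mul_left]
    refine tsum_congr fun m => ?_
    rw [trm, map_mul, map_pow, ← hPs, ← IsScalarTower.algebraMap_apply, ← pow_mul, pow_add]
    ring
  choose g hg using key
  refine ⟨g, ?_⟩
  rw [evA_apply, Nat.sumByResidueClasses (summable_trm hn hs (norm_coeff_tay2_le x)) e]
  exact Finset.sum_congr rfl fun j _ => hg j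

end

/-- evaluation of `F2 C` in a subfield of `Ω` -/
theorem exists_hom_aux {E1 : Type v} [Field E1] [Algebra C E1] {Ω : Type*} [Field Ω]
    [Algebra (F0 C) Ω] [Algebra C Ω] [IsScalarTower C (F0 C) Ω]
    (ι : E1 →ₐ[C] Ω) (i1 : F1 C →+* E1) (hι : ∀ x : F1 C, ι (i1 x) = algebraMap (F0 C) Ω x)
    {s : E1} {e : ℕ} (he : e ≠ 0) {P1 : F1 C}
    (hP1 : (P1 : F0 C) ∈ A1 C) (hP1n : ‖(P1 : F0 C)‖ < 1) (hs : s ^ e = i1 P1)
    (htr : ∀ P : C[X], P ≠ 0 → aeval s P ≠ 0) :
    ∃ φ : F2 C →ₐ[C] E1, φ (iA2 sA) = s := by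
  let n1 : NontriviallyNormedField (F0 C) := ntF0
  have hinj : ∀ x y, ι x = ι y → x = y := fun x y h => ι.toRingHom.injective h
  have hint : IsIntegral (F0 C) (ι s) := by
    refine IsIntegral.of_pow (Nat.pos_of_ne_zero he) ?_
    rw [← map_pow, hs, hι]
    exact isIntegral_algebraMap
  let L : IntermediateField (F0 C) Ω := IntermediateField.adjoin (F0 C) {ι s}
  have hfin : FiniteDimensional (F0 C) L := IntermediateField.adjoin.finiteDimensional hint
  let i2 : NormedField L := spectralNorm.normedField (F0 C) L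
  let i3 : NormedAlgebra (F0 C) L := spectralNorm.normedAlgebra (F0 C) L
  have i4 : CompleteSpace L := spectralNorm.completeSpace (F0 C) L
  have i5 : IsUltrametricDist L :=
    IsUltrametricDist.isUltrametricDist_of_isNonarchimedean_norm
      (isNonarchimedean_spectralNorm (K := F0 C) (L := L))
  have hnF : ∀ x : F0 C, ‖algebraMap (F0 C) L x‖ = ‖x‖ := fun x => norm_algebraMap' L x
  have hnC : ∀ x : C, ‖algebraMap C L x‖ = ‖x‖ := fun x => by
    rw [IsScalarTower.algebraMap_apply C (F0 C) L, hnF, norm_algebraMap_C]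
  let s' : L := ⟨ι s, IntermediateField.mem_adjoin_simple_self _ _⟩
  have hs' : s' ^ e = algebraMap (F0 C) L P1 := by
    apply Subtype.ext
    change (ι s) ^ e = algebraMap (F0 C) Ω P1
    rw [← map_pow, hs, hι]
  have hs1 : ‖s'‖ < 1 := by
    have h := congrArg norm hs'
    rw [norm_pow, hnF] at h
    by_contra hcon
    push Not at hcon
    have := one_le_pow₀ hcon (n := e)
    rw [h] at this
    exact absurd hP1n (not_lt.2 this)
  let Lv : L →ₐ[C] Ω := L.val.restrictScalars C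
  have htr' : ∀ P : C[X], P ≠ 0 → aeval s' P ≠ 0 := by
    intro P hP h0
    apply htr P hP
    apply hinj
    rw [map_zero, ← Polynomial.aeval_algHom_apply]
    have h1 := congrArg Lv h0
    rw [map_zero, ← Polynomial.aeval_algHom_apply] at h1
    exact h1
  obtain ⟨φ0, hφ0, hφs⟩ := exists_ev hnC hs1 htr'
  let Φ : F2 C →ₐ[C] Ω := Lv.comp φ0
  have hA : ∀ a : A2 C, Φ (iA2 a) ∈ ι.fieldRange := by
    intro a
    obtain ⟨g, hg⟩ := evA_eq hnF hnC hs1 he hP1 hs' a
    have h1 : Φ (iA2 a) = Lv (evA hnC hs1 a) := by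
      change Lv (φ0 (iA2 a)) = _
      rw [hφ0]
    rw [h1, hg, map_sum]
    refine sum_mem fun j _ => ?_
    rw [map_mul, map_pow]
    refine mul_mem (pow_mem (AlgHom.mem_fieldRange.2 ⟨s, rfl⟩) _)
      (AlgHom.mem_fieldRange.2 ⟨i1 ⟨_, A1_le_F1 (g j).2⟩, ?_⟩)
    rw [hι]
    rfl
  have hF : ∀ x : F2 C, Φ x ∈ ι.range := by
    intro x
    obtain ⟨a, b, -, rfl⟩ := exists_div_A2 x
    have h : Φ (iA2 a / iA2 b) ∈ ι.fieldRange := by
      rw [map_div₀]
      exact div_mem (hA a) (hA b)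
    exact h
  let φ : F2 C →ₐ[C] E1 :=
    (AlgEquiv.ofInjectiveField ι).symm.toAlgHom.comp (Φ.codRestrict ι.range hF)
  have hφ : ∀ x, ι (φ x) = Φ x := by
    intro x
    have h1 : (AlgEquiv.ofInjectiveField ι) (φ x) = Φ.codRestrict ι.range hF x :=
      (AlgEquiv.ofInjectiveField ι).apply_symm_apply _
    exact congrArg Subtype.val h1
  refine ⟨φ, hinj _ _ ?_⟩
  have h2 : Φ (iA2 sA) = ι s := by
    change Lv (φ0 (iA2 sA)) = ι s
    rw [hφs]
    rfl
  rw [hφ, h2]

lemma exists_emb {F E Ω : Type*} [Field F] [Field E] [Algebra F E] [Algebra.IsAlgebraic F E]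
    [Field Ω] [IsAlgClosed Ω] (f : F →+* Ω) :
    ∃ ι : E →+* Ω, ∀ x, ι (algebraMap F E x) = f x := by
  let a : Algebra F Ω := f.toAlgebra
  exact ⟨(IsAlgClosed.lift : E →ₐ[F] Ω).toRingHom, fun x => AlgHom.commutes _ x⟩

lemma exists_emb_F1 {E1 : Type v} [Field E1] [Algebra (F1 C) E1] [Algebra.IsAlgebraic (F1 C) E1]
    [Algebra C E1] [IsScalarTower C (F1 C) E1] (Ω : Type*) [Field Ω] [IsAlgClosed Ω]
    [Algebra (F0 C) Ω] [Algebra C Ω] [IsScalarTower C (F0 C) Ω] :
    ∃ ι : E1 →ₐ[C] Ω, ∀ x : F1 C, ι (algebraMap (F1 C) E1 x) = algebraMap (F0 C) Ω x := by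
  obtain ⟨ι, hι⟩ := exists_emb (E := E1) ((algebraMap (F0 C) Ω).comp (F1 C).val.toRingHom)
  refine ⟨{ ι with commutes' := fun c => ?_ }, hι⟩
  change ι (algebraMap C E1 c) = _
  rw [IsScalarTower.algebraMap_apply C (F1 C) E1, hι, IsScalarTower.algebraMap_apply C (F0 C) Ω]
  rfl

/-- **evaluation of `F2 C` in a finite extension of `F1 C`** -/
theorem exists_hom_F1 {E1 : Type v} [Field E1] [Algebra (F1 C) E1] [Algebra.IsAlgebraic (F1 C) E1]
    [Algebra C E1] [IsScalarTower C (F1 C) E1] {s : E1} {e : ℕ} (he : e ≠ 0) {P1 : F1 C}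
    (hP1 : (P1 : F0 C) ∈ A1 C) (hP1n : ‖(P1 : F0 C)‖ < 1) (hs : s ^ e = algebraMap (F1 C) E1 P1)
    (htr : ∀ P : C[X], P ≠ 0 → aeval s P ≠ 0) :
    ∃ φ : F2 C →ₐ[C] E1, φ (iA2 sA) = s := by
  obtain ⟨ι, hι⟩ := exists_emb_F1 (C := C) (E1 := E1) (AlgebraicClosure (F0 C))
  exact exists_hom_aux ι (algebraMap (F1 C) E1) hι he hP1 hP1n hs htr

end

end P025H222
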