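import Vale.Agent.P025.R2.H222.Def
import Vale.Agent.P025.R2.H373.Gauss
import Vale.Agent.P025.R2.H816.BC3

/-!
# G-LA-b (helper222): `HL` is an `l`-th power over the boundary; Kummer gluing
-/

universe u v

namespace P025H222

open Polynomial P025H373 P025H552 P025H544 TensorProduct P025H572 P025H731 P025H492
  Vale.Agent.P019P

noncomputable section

set_option linter.unusedSectionVars false

variable {C : Type u} [NontriviallyNormedField C] [IsUltrametricDist C] [CompleteSpace C]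
  [IsAlgClosed C] [CharZero C]

theorem patch1 : Patch (RatFunc C) (F1 C) (F2 C) (F0 C) where
  inter := by
    intro x y h
    have h' : (x : F0 C) = (y : F0 C) := h
    have hx : (x : F0 C) ∈ F1 C ⊓ F2 C := by
      refine ⟨x.2, ?_⟩
      rw [h']
      exact y.2
    rw [F1_inf_F2] at hx
    obtain ⟨r, hr⟩ := IntermediateField.mem_bot.1 hx
    exact ⟨r, Subtype.ext hr, Subtype.ext (hr.trans h)⟩
  fact := by
    intro n g
    obtain ⟨a, b, ha, hb, hab⟩ := exists_GL_mul (C := C) (n := Fin n) g.1 g.isUnit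
    exact ⟨ha.unit, hb.unit, Units.ext hab⟩

variable {p h l : ℕ} {ζ κ Y0 ρ : C} {A V : C[X]}

section

variable {L : Type v} [Field L] [Algebra C L] [CFF C L]
  [Algebra (RatFunc C) L] [IsScalarTower C (RatFunc C) L] [FiniteDimensional (RatFunc C) L]

theorem HL_pow_aux (d : Dat p h l ζ κ Y0 ρ A V) (hp : p.Prime) (hpC : ‖(p : C)‖ < 1)
    (hl : l.Prime) (hlp : l ≠ p) (hζ : IsPrimitiveRoot ζ p) {T : L}
    (hT : T ^ p = aeval (tL' C L) (Ph h κ ρ)) {E : Type*} [Field E] [Algebra (F0 C) E]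
    [FiniteDimensional (F0 C) E] [Algebra C E] [IsScalarTower C (F0 C) E] (χ : L →+* E)
    (hχ : ∀ f : RatFunc C, χ (algebraMap (RatFunc C) L f) =
      algebraMap (F0 C) E (algebraMap (RatFunc C) (F0 C) f)) :
    χ (HL ζ A (tL' C L) T) ≠ 0 ∧ ∃ z : E, z ^ l = χ (HL ζ A (tL' C L) T) := by
  have hpol : ∀ G : C[X], χ (aeval (tL' C L) G) = algebraMap (F0 C) E (aeval (tt C) G) := by
    intro G
    rw [aeval_tL', hχ, algebraMap_poly]
  have hcst : ∀ c : C, χ (algebraMap C L c) = algebraMap C E c := by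
    intro c
    have := hpol (Polynomial.C c)
    rw [aeval_C, aeval_C] at this
    rw [this, ← IsScalarTower.algebraMap_apply]
  have h1 : ‖aeval (tt C) A‖ = 1 := by rw [norm_aeval, d.gpA]
  have h2 : (χ T) ^ p - (algebraMap (F0 C) E (aeval (tt C) A)) ^ p =
      algebraMap (F0 C) E (aeval (tt C) (X ^ l * V)) := by
    rw [← map_pow, hT, hpol, ← map_pow, ← map_sub, ← map_pow, ← map_sub, d.hv]
  have h3 : ‖ζ - 1‖ ^ p < ‖aeval (tt C) (X ^ l * V)‖ := by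
    rw [map_mul, norm_mul, map_pow, norm_pow, aeval_X, norm_tt, one_pow, one_mul, norm_aeval,
      d.gpV]
    exact d.gap
  obtain ⟨h4, z, hz0, hz⟩ := exists_root_bd hp hpC hl hlp hζ h1 h2 h3
  have h5 : χ (HL ζ A (tL' C L) T) = (χ T - algebraMap (F0 C) E (aeval (tt C) A)) /
      (χ T - algebraMap C E ζ * algebraMap (F0 C) E (aeval (tt C) A)) := by
    rw [HL, map_div₀, map_sub, map_sub, map_mul, hpol, hcst]
  rw [h5, ← hz]
  exact ⟨pow_ne_zero _ hz0, z, rfl⟩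

theorem HL_pow_F0 (d : Dat p h l ζ κ Y0 ρ A V) (hp : p.Prime) (hpC : ‖(p : C)‖ < 1)
    (hl : l.Prime) (hlp : l ≠ p) (hζ : IsPrimitiveRoot ζ p) {T : L}
    (hT : T ^ p = aeval (tL' C L) (Ph h κ ρ)) :
    ∃ z : F0 C ⊗[RatFunc C] L, z ^ l = (1 : F0 C) ⊗ₜ[RatFunc C] HL ζ A (tL' C L) T := by
  have hr : IsReduced (F0 C ⊗[RatFunc C] L) := tensor_reduced
  have ha : IsArtinianRing (F0 C ⊗[RatFunc C] L) := IsArtinianRing.of_finite (F0 C) _
  apply isPow_of_forall_maximal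
  intro m
  let fE : Field ((F0 C ⊗[RatFunc C] L) ⧸ m.asIdeal) := Ideal.Quotient.field _
  let χ : L →+* (F0 C ⊗[RatFunc C] L) ⧸ m.asIdeal :=
    (Ideal.Quotient.mk m.asIdeal).comp
      (Algebra.TensorProduct.includeRight : L →ₐ[RatFunc C] F0 C ⊗[RatFunc C] L).toRingHom
  have h1 := HL_pow_aux d hp hpC hl hlp hζ hT (E := (F0 C ⊗[RatFunc C] L) ⧸ m.asIdeal) χ
    (fun f => by
      change Ideal.Quotient.mk m.asIdeal ((1 : F0 C) ⊗ₜ[RatFunc C] algebraMap (RatFunc C) L f) =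
        Ideal.Quotient.mk m.asIdeal ((algebraMap (RatFunc C) (F0 C) f) ⊗ₜ[RatFunc C] (1 : L))
      rw [Algebra.TensorProduct.tmul_one_eq_one_tmul])
  exact h1.2

theorem HL_ne_zero (d : Dat p h l ζ κ Y0 ρ A V) (hζ : IsPrimitiveRoot ζ p)
    {T : L} (hT : T ^ p = aeval (tL' C L) (Ph h κ ρ)) : HL ζ A (tL' C L) T ≠ 0 := by
  have h0 : T ^ p - (aeval (tL' C L) A) ^ p ≠ 0 := by
    rw [hT, ← map_pow, ← map_sub, d.hv, aeval_tL']
    refine (_root_.map_ne_zero _).2 (RatFunc.algebraMap_ne_zero ?_)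
    exact mul_ne_zero (pow_ne_zero _ X_ne_zero) d.vne
  rw [HL]
  refine div_ne_zero (fun h1 => h0 ?_) (fun h1 => h0 ?_)
  · rw [sub_eq_zero.1 h1, sub_self]
  · rw [sub_eq_zero.1 h1, mul_pow, ← map_pow, hζ.pow_eq_one, map_one, one_mul, sub_self]

/-- Kummer gluing of `HL` and `1` -/
theorem exists_glued (d : Dat p h l ζ κ Y0 ρ A V) (hp : p.Prime) (hpC : ‖(p : C)‖ < 1)
    (hl : l.Prime) (hlp : l ≠ p) (hζ : IsPrimitiveRoot ζ p) {T : L}
    (hT : T ^ p = aeval (tL' C L) (Ph h κ ρ)) :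
    ∃ β : L, β ≠ 0 ∧
      (∃ s : F1 C ⊗[RatFunc C] L, IsUnit s ∧
        (1 : F1 C) ⊗ₜ[RatFunc C] β = ((1 : F1 C) ⊗ₜ[RatFunc C] HL ζ A (tL' C L) T) * s ^ l) ∧
      (∃ r : F2 C ⊗[RatFunc C] L, (1 : F2 C) ⊗ₜ[RatFunc C] β = r ^ l) := by
  obtain ⟨z, hz⟩ := HL_pow_F0 d hp hpC hl hlp hζ hT
  have h0 := HL_ne_zero d hζ hT
  have hu1 : IsUnit ((1 : F1 C) ⊗ₜ[RatFunc C] HL ζ A (tL' C L) T) := isUnit_one_tmul h0
  have hu0 : IsUnit ((1 : F0 C) ⊗ₜ[RatFunc C] HL ζ A (tL' C L) T) := isUnit_one_tmul h0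
  have hz' : IsUnit z := (isUnit_pow_iff hl.ne_zero).1 (by rw [hz]; exact hu0)
  obtain ⟨x, hx0, ⟨s, hs⟩, t, ht⟩ := (patch1 (C := C)).kummer_glue (L := L) l hu1.unit 1 hz'.unit
    (by
      rw [IsUnit.unit_spec, IsUnit.unit_spec, Units.val_one, map_one, one_mul, hz, bc_tmul,
        map_one])
  refine ⟨x, hx0, ⟨s, s.isUnit, ?_⟩, t, ?_⟩
  · rw [hs, IsUnit.unit_spec]
  · rw [ht, Units.val_one, one_mul]

end

end

end P025H222
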