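import Vale.Agent.P025.R2.H222.Psi
import Vale.Agent.P025.R2.H133.GLAb6
import Vale.Agent.P025.R2.H219.GLAb7
import Vale.Agent.P025.R2.H222.Glu
import Vale.Agent.P025.R2.H507.NotPowT
import Vale.Agent.P025.R2.H970.GLAb2
import Vale.Agent.P025.R2.H542.CoreTwo

/-!
# G-LA-b (helper222): the local model, final form
-/

universe u v

namespace P025H222

open Polynomial P025H373 P025H552 P025H544 TensorProduct P025H572 P025H731 P025H492
  Vale.Agent.P019P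

noncomputable section

set_option linter.unusedSectionVars false

variable {C : Type u} [NontriviallyNormedField C] [IsUltrametricDist C] [CompleteSpace C]
  [IsAlgClosed C] [CharZero C]

theorem pow_descend {F : Type*} {F1 : Type u} {L : Type v} [Field F] [Field F1] [Algebra F F1]
    [CharZero F] [Field L] [Algebra F L] [FiniteDimensional F L] {l : ℕ} {β H : L}
    {s : F1 ⊗[F] L} (hsu : IsUnit s)
    (hs : (1 : F1) ⊗ₜ[F] β = ((1 : F1) ⊗ₜ[F] H) * s ^ l)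
    (hpow : ∀ (K1 : Type (max v u)) [Field K1] [Algebra F1 K1] [FiniteDimensional F1 K1]
      (χ : L →+* K1), (∀ f : F, χ (algebraMap F L f) = algebraMap F1 K1 (algebraMap F F1 f)) →
        ∃ w : K1, w ^ l = χ β) : ∃ G : F1 ⊗[F] L, G ^ l = (1 : F1) ⊗ₜ[F] H := by
  have hred : IsReduced (F1 ⊗[F] L) := tensor_reduced
  have hart : IsArtinianRing (F1 ⊗[F] L) := IsArtinianRing.of_finite F1 (F1 ⊗[F] L)
  obtain ⟨w, hw⟩ : ∃ w : F1 ⊗[F] L, w ^ l = (1 : F1) ⊗ₜ[F] β := by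
    apply isPow_of_forall_maximal
    intro m
    let fE : Field ((F1 ⊗[F] L) ⧸ m.asIdeal) := Ideal.Quotient.field _
    let χ : L →+* (F1 ⊗[F] L) ⧸ m.asIdeal :=
      (Ideal.Quotient.mk m.asIdeal).comp
        (Algebra.TensorProduct.includeRight : L →ₐ[F] F1 ⊗[F] L).toRingHom
    exact hpow ((F1 ⊗[F] L) ⧸ m.asIdeal) χ (fun f => by
      change Ideal.Quotient.mk m.asIdeal ((1 : F1) ⊗ₜ[F] algebraMap F L f) =
        Ideal.Quotient.mk m.asIdeal ((algebraMap F F1 f) ⊗ₜ[F] (1 : L))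
      rw [Algebra.TensorProduct.tmul_one_eq_one_tmul])
  obtain ⟨s', rfl⟩ := hsu
  refine ⟨w * ((s'⁻¹ : (F1 ⊗[F] L)ˣ) : F1 ⊗[F] L), ?_⟩
  rw [mul_pow, hw, hs, mul_assoc, ← mul_pow, Units.mul_inv, one_pow, mul_one]

theorem not_pow_core {p l : ℕ} {ζ : C} {A F : C[X]} (hp : p.Prime)
    (hpC : ‖(p : C)‖ < 1) (hl : l.Prime) (hlp : l ≠ p) (D : P025H507.Loc C p l)
    (hDφ : D.φ = F) (hDα : D.α = A) (hDζ : D.ζ = ζ)
    {L : Type v} [Field L] [Algebra C L] [CFF C L] [Algebra (RatFunc C) L]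
    [IsScalarTower C (RatFunc C) L] [FiniteDimensional (RatFunc C) L]
    {T : L} (hT : T ^ p = aeval (tL' C L) F)
    (hL : IntermediateField.adjoin (RatFunc C) {T} = ⊤) {β : L}
    {s : F1 C ⊗[RatFunc C] L} (hsu : IsUnit s)
    (hs : (1 : F1 C) ⊗ₜ[RatFunc C] β = ((1 : F1 C) ⊗ₜ[RatFunc C] HL ζ A (tL' C L) T) * s ^ l)
    (hpow : ∀ (K1 : Type (max v u)) [Field K1] [Algebra (F1 C) K1] [FiniteDimensional (F1 C) K1]
      (χ : L →+* K1), (∀ f : RatFunc C, χ (algebraMap (RatFunc C) L f) =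
        algebraMap (F1 C) K1 (algebraMap (RatFunc C) (F1 C) f)) → ∃ w : K1, w ^ l = χ β) :
    False := by
  have hch : CharZero (RatFunc C) :=
    charZero_of_injective_algebraMap (algebraMap C (RatFunc C)).injective
  obtain ⟨G, hG⟩ := pow_descend hsu hs hpow
  refine P025H507.not_pow_tensor hp hpC hl hlp D (T := T) ?_ hL G ?_
  · rw [hT, aeval_tL', hDφ]
    rfl
  · rw [hG, HL, aeval_tL', IsScalarTower.algebraMap_apply C (RatFunc C) L, hDα, hDζ]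
    rfl

/-- the local model from the data `Dat` -/
theorem isModel_of_dat {p h l : ℕ} {ζ κ Y0 ρ : C} {A V : C[X]} (hp : p.Prime)
    (hpC : ‖(p : C)‖ < 1) (hl : l.Prime) (hlp : l ≠ p) (hh : h ≠ 0)
    (d : Dat p h l ζ κ Y0 ρ A V) (D : P025H507.Loc C p l) (hDφ : D.φ = Ph h κ ρ) (hDα : D.α = A)
    (hDζ : D.ζ = ζ) {q e e' j : ℕ} (hq : q = p * h) (he : e = e' * p) (he' : e' ≠ 0)
    (hej : e = p ^ j) {b : C} (hhb : ‖(h : C)‖ < ‖b‖) (hb1 : ‖b‖ < 1) :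
    IsModel l q (xb b e) := by
  have hζ : IsPrimitiveRoot ζ p := hDζ ▸ D.hζ
  have hb : b ≠ 0 := by
    rintro rfl
    rw [norm_zero] at hhb
    exact absurd hhb (not_lt.2 (norm_nonneg _))
  obtain ⟨γ, hγ'⟩ := IsAlgClosed.exists_pow_nat_eq (b * (κ - 1) / Y0) hp.pos
  have hγ : γ ^ p * Y0 = b * (κ - 1) := by rw [hγ', div_mul_cancel₀ _ d.yne]
  have hirr : Irreducible
      (X ^ p - Polynomial.C (algebraMap C[X] (RatFunc C) (Ph h κ ρ)) : (RatFunc C)[X]) :=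
    X_pow_sub_C_irreducible_of_prime hp fun b hb =>
      not_pow_Ph hp.one_lt hh d.yh d.rne d.kne b hb
  have hfact : Fact (Irreducible
      (X ^ p - Polynomial.C (algebraMap C[X] (RatFunc C) (Ph h κ ρ)) : (RatFunc C)[X])) := ⟨hirr⟩
  have hfd : FiniteDimensional (RatFunc C) (LL C p h κ ρ) :=
    (monic_X_pow_sub_C _ hp.ne_zero).finite_adjoinRoot
  have hcff : CFF C (LL C p h κ ρ) := P025H816.cff_of_finite (K := RatFunc C)
  have hT : (AdjoinRoot.root _ : LL C p h κ ρ) ^ p =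
      aeval (tL' C (LL C p h κ ρ)) (Ph h κ ρ) := by
    rw [aeval_tL']
    have := AdjoinRoot.eval₂_root
      (X ^ p - Polynomial.C (algebraMap C[X] (RatFunc C) (Ph h κ ρ)) : (RatFunc C)[X])
    rw [eval₂_sub, eval₂_X_pow, eval₂_C, sub_eq_zero] at this
    exact this
  obtain ⟨β, hβ0, ⟨s, hsu, hs⟩, r, hr⟩ := exists_glued d hp hpC hl hlp hζ hT
  obtain ⟨ψ, hψ⟩ := exists_psi d hp.ne_zero hh hq he he' hb hγ
  refine ⟨ψ β, (IsUnit.mk0 β hβ0).map ψ, ?_, ?_, ?_⟩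
  · exact pow_mapB d hp.ne_zero hh hq he he' hhb hb1 hψ hr
  · rintro ⟨z, hz⟩
    refine not_pow_core hp hpC hl hlp D hDφ hDα hDζ hT ?_ hsu hs ?_
    · exact adjoin_eq_top_of_surj (AlgHom.id (RatFunc C) (LL C p h κ ρ)) Function.surjective_id
    · intro K1 _ _ _ χ hχ
      exact pow_of_pow_BB d hp hl hlp hh hq he he' hej hhb hb1 hγ hψ χ hχ
        ((_root_.map_ne_zero χ).2 hβ0) hz
  · intro lam
    have hval := val_of_ord (x := β) hβ0 (ord_glued d hp hl.pos hζ hT hβ0 hs hr)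
      (lam.comp ψ) (lauO C) (fun c => by
        rw [RingHom.comp_apply, hψ.cst]
        exact (order_const (lam.comp (cst q (xb b e))) c).ge)
    obtain ⟨z, hz0, hz⟩ := hval
    have h1 : (lam (ψ β)).order = (z ^ l).order := by
      refine order_eq_of_val ?_ (pow_ne_zero _ hz0) ?_
      · exact (_root_.map_ne_zero (lam.comp ψ)).2 hβ0
      · rw [map_pow]
        exact hz
    rw [h1, HahnSeries.order_pow, nsmul_eq_mul]
    exact dvd_mul_right _ _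

/-- the local model from a `Core` -/
theorem isModel_core {p m l j : ℕ} (hp : p.Prime) (hpC : ‖(p : C)‖ < 1) (hl : l.Prime)
    (hlp : l ≠ p) (hm : 2 ≤ m) (hj : j ≠ 0) (c : P025H507.Core C p (p ^ (m - 1)) l)
    {b : C} (hb : ‖((p ^ (m - 1) : ℕ) : C)‖ < ‖b‖) (hb1 : ‖b‖ < 1) :
    IsModel l (p ^ m) (xb b (p ^ j)) := by
  have h0 : p ^ (m - 1) ≠ 0 := pow_ne_zero _ hp.ne_zero
  obtain ⟨ζ, κ, Y0, ρ, A, V, D, d, h1, h2, -, h3⟩ := exists_dat hp hpC
    (dvd_pow_self p (by omega : m - 1 ≠ 0)) h0 c hl.ne_zero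
  refine isModel_of_dat hp hpC hl hlp h0 d D h1 h2 h3 (q := p ^ m) (e := p ^ j)
    (e' := p ^ (j - 1)) (j := j) ?_ ?_ (pow_ne_zero _ hp.ne_zero) rfl hb hb1
  · rw [← pow_succ']
    congr 1
    omega
  · rw [← pow_succ]
    congr 1
    omega

/-- **G-LA-b**, `p` odd -/
theorem isModel_odd {p m j : ℕ} (hp : p.Prime) (hp2 : p ≠ 2) (hpC : ‖(p : C)‖ < 1)
    (hm : 2 ≤ m) (hj : j ≠ 0) {b : C} (hb : ‖((p ^ (m - 1) : ℕ) : C)‖ < ‖b‖) (hb1 : ‖b‖ < 1) :
    IsModel 2 (p ^ m) (xb b (p ^ j)) := by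
  obtain ⟨c⟩ := P025H507.exists_core_odd (K := C) hp hp2 hpC (h := p ^ (m - 1))
    (pow_ne_zero _ hp.ne_zero) (dvd_pow_self p (by omega : m - 1 ≠ 0))
  exact isModel_core hp hpC Nat.prime_two hp2.symm hm hj c hb hb1

/-- **G-LA-b**, `p = 2` -/
theorem isModel_two {m j : ℕ} (hpC : ‖(2 : C)‖ < 1) (hm : 3 ≤ m) (hj : j ≠ 0) {b : C}
    (hb : ‖((2 ^ (m - 1) : ℕ) : C)‖ < ‖b‖) (hb1 : ‖b‖ < 1) :
    IsModel 3 (2 ^ m) (xb b (2 ^ j)) := by
  obtain ⟨c⟩ := P025H507.exists_core_two (K := C) hpC (h := 2 ^ (m - 1))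
    (pow_ne_zero _ two_ne_zero) (pow_dvd_pow 2 (by omega : 2 ≤ m - 1))
  exact isModel_core Nat.prime_two (by exact_mod_cast hpC) Nat.prime_three (by norm_num)
    (by omega) hj c hb hb1

/-- **G-LA-b** -/
theorem isModel_b {p m j : ℕ} (hp : p.Prime) (hpC : ‖(p : C)‖ < 1) (hm : 3 ≤ m) (hj : j ≠ 0)
    {b : C} (hb : ‖((p ^ (m - 1) : ℕ) : C)‖ < ‖b‖) (hb1 : ‖b‖ < 1) :
    IsModel (if p = 2 then 3 else 2) (p ^ m) (xb b (p ^ j)) := by
  by_cases h : p = 2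
  · subst h
    rw [if_pos rfl]
    exact isModel_two (by exact_mod_cast hpC) hm hj hb hb1
  · rw [if_neg h]
    exact isModel_odd hp h hpC (by omega) hj hb hb1

end

end P025H222
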