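import Vale.Agent.P025.R2.H222.Fin

/-!
# P025 G-LEMA: the case `e = p ^ j` of the local model, in helper572's form (replaces `BSpec.lean`)
-/

open Polynomial P025H373

namespace P025H572

variable {C : Type*} [NontriviallyNormedField C] [IsUltrametricDist C] [CompleteSpace C]
  [IsAlgClosed C] [CharZero C]

/-- G-LA-b. -/
theorem isModel_b {p : ℕ} (hp : p.Prime) (hpC : ‖(p : C)‖ < 1) {j m : ℕ} (hj : 1 ≤ j)
    (hm : (if p = 2 then 3 else 2) ≤ m) {b : C} (hb : ‖((p ^ (m - 1) : ℕ) : C)‖ < ‖b‖)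
    (hb1 : ‖b‖ < 1) : IsModel (if p = 2 then 3 else 2) (p ^ m) (xb b (p ^ j)) := by
  by_cases h : p = 2
  · subst h
    rw [if_pos rfl] at hm ⊢
    exact P025H222.isModel_two (by exact_mod_cast hpC) hm (by omega) hb hb1
  · rw [if_neg h] at hm ⊢
    exact P025H222.isModel_odd hp h hpC hm (by omega) hb hb1

end P025H572
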