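import Vale.Agent.P025.R2.H222.Pol
import Vale.Agent.P025.R2.H552.Root
import Vale.Agent.P025.R2.H731.Sides
import Vale.Agent.P025.R2.H544.PatchSpec

/-!
# G-LA-b (helper222): orders of `T - ω A` at the places of `L = C(t)(T)` over the disc
-/

universe u v

namespace P025H222

open Polynomial P025H373 P025H731 P025H492 Vale.Agent.P019P TensorProduct P025H544

noncomputable section

set_option linter.unusedSectionVars false

section Basic

variable {C : Type u} [Field C] {L : Type v} [Field L] [Algebra C L] [CFF C L]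

lemma ord_aeval_eq_zero {P : Plk C L} {t : L} {a : C} (ha : 0 < ord P (t - algebraMap C L a))
    {G : C[X]} (hG : G.eval a ≠ 0) : aeval t G ≠ 0 ∧ ord P (aeval t G) = 0 := by
  have h1 : aeval (t - algebraMap C L a) (G.comp (X + Polynomial.C a)) = aeval t G := by
    rw [aeval_comp, map_add, aeval_X, aeval_C, sub_add_cancel]
  rw [← h1]
  refine ord_aeval_of_coeff_ne ha ?_
  rwa [coeff_zero_eq_eval_zero, eval_comp, eval_add, eval_X, eval_C, zero_add]

lemma ord_prod_eq (P : Plk C L) {ι : Type*} (s : Finset ι) (f : ι → L) (hf : ∀ i ∈ s, f i ≠ 0) :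
    ord P (∏ i ∈ s, f i) = ∑ i ∈ s, ord P (f i) := by
  classical
  induction s using Finset.induction_on with
  | empty => simp [ord_one]
  | insert i s hi ih =>
    rw [Finset.prod_insert hi, Finset.sum_insert hi,
      ord_mul P (hf i (Finset.mem_insert_self _ _))
        (Finset.prod_ne_zero_iff.2 fun j hj => hf j (Finset.mem_insert_of_mem hj)),
      ih fun j hj => hf j (Finset.mem_insert_of_mem hj)]

end Basic

section Main

variable {C : Type u} [NontriviallyNormedField C] [IsUltrametricDist C] [CompleteSpace C]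
  [IsAlgClosed C] [CharZero C] {L : Type v} [Field L] [Algebra C L] [CFF C L]
variable {p h l : ℕ} {ζ κ Y0 ρ : C} {A V : C[X]}

/-- the factors `T - ω A` -/
theorem ord_factor (d : Dat p h l ζ κ Y0 ρ A V) (hp : p.Prime) (hζ : IsPrimitiveRoot ζ p)
    {t T : L} (ht : t ≠ 0) (hT : T ^ p = aeval t (Ph h κ ρ)) {P : Plk C L} {a : C} (ha : ‖a‖ ≤ 1)
    (haP : 0 < ord P (t - algebraMap C L a)) {ω : C} (hω : ω ^ p = 1) :
    T - algebraMap C L ω * aeval t A ≠ 0 ∧
      (ord P (T - algebraMap C L ω * aeval t A) = 0 ∨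
        ord P (T - algebraMap C L ω * aeval t A) = l * ord P t) := by
  classical
  have hpos : 0 < p := hp.pos
  have hζ' : IsPrimitiveRoot (algebraMap C L ζ) p :=
    hζ.map_of_injective (algebraMap C L).injective
  obtain ⟨hV0, hVo⟩ := ord_aeval_eq_zero haP (d.eval_V ha)
  obtain ⟨hA0, hAo⟩ := ord_aeval_eq_zero haP (eval_ne_zero_of_gp d.a1 ha)
  have hprod : ∏ ω ∈ nthRootsFinset p (1 : L), (T - ω * aeval t A) = t ^ l * aeval t V := by
    rw [← hζ'.pow_sub_pow_eq_prod_sub_mul _ _ hpos, hT, ← map_pow, ← map_sub, d.hv, map_mul,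
      map_pow, aeval_X]
  have hne : t ^ l * aeval t V ≠ 0 := mul_ne_zero (pow_ne_zero _ ht) hV0
  have hfac : ∀ ω ∈ nthRootsFinset p (1 : L), T - ω * aeval t A ≠ 0 := by
    intro ω hω h0
    rw [Finset.prod_eq_zero hω h0] at hprod
    exact hne hprod.symm
  have hmem : ∀ ω : C, ω ^ p = 1 → algebraMap C L ω ∈ nthRootsFinset p (1 : L) := fun ω hω =>
    (mem_nthRootsFinset hpos _).2 (by rw [← map_pow, hω, map_one])
  refine ⟨hfac _ (hmem ω hω), ?_⟩
  -- orders are nonnegative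
  have ht0 : 0 ≤ ord P t := by
    by_contra hlt
    push Not at hlt
    have h1 : (algebraMap C L a) ∈ Mge P (ord P t + 1) := by
      by_cases h0 : algebraMap C L a = 0
      · exact Or.inl h0
      · exact Or.inr (by rw [ord_const]; omega)
    have h2 := (ord_add_of_lt ht ((Mge P _).neg_mem h1)).2
    rw [← sub_eq_add_neg] at h2
    omega
  have hT0 : T ∈ Mge P 0 := by
    by_cases h0 : T = 0
    · exact Or.inl h0
    · right
      have h1 : T ^ p ∈ Mge P 0 := by rw [hT]; exact COrd_aeval_mem ht0 _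
      have h2 := h1.resolve_left (pow_ne_zero _ h0)
      rw [ord_pow] at h2
      by_contra hlt
      push Not at hlt
      have : (p : ℤ) * ord P T < 0 := mul_neg_of_pos_of_neg (by exact_mod_cast hpos) hlt
      omega
  have hA0' : aeval t A ∈ Mge P 0 := COrd_aeval_mem ht0 _
  have hconst : ∀ c : C, algebraMap C L c ∈ Mge P 0 := by
    intro c
    by_cases h0 : algebraMap C L c = 0
    · exact Or.inl h0
    · exact Or.inr (by rw [ord_const])
  have hu : ∀ c : C, T - algebraMap C L c * aeval t A ∈ Mge P 0 := fun c => by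
    have h1 := mul_mem_Mge (hconst c) hA0'
    rw [add_zero] at h1
    exact (Mge P 0).sub_mem hT0 h1
  rcases (hu ω).resolve_left (hfac _ (hmem ω hω)) |>.eq_or_lt with h0 | hlt
  · exact Or.inl h0.symm
  right
  -- all other factors have order zero
  have hother : ∀ η ∈ nthRootsFinset p (1 : L), η ≠ algebraMap C L ω →
      ord P (T - η * aeval t A) = 0 := by
    intro η hη hne'
    have h1 := (mem_nthRootsFinset hpos _).1 hη
    obtain ⟨c, -, hc⟩ := P025H552.exists_const_of_pow_eq (C := C) (K := L) hp.ne_zero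
      (one_ne_zero) (x := η) (y := 1) (by rw [h1, one_pow])
    rw [mul_one] at hc
    subst hc
    have hcω : ω - c ≠ 0 := by
      intro h0
      exact hne' (by rw [sub_eq_zero.1 h0])
    have h2 : T - algebraMap C L c * aeval t A =
        algebraMap C L (ω - c) * aeval t A + (T - algebraMap C L ω * aeval t A) := by
      rw [map_sub]; ring
    have h3 : algebraMap C L (ω - c) * aeval t A ≠ 0 :=
      mul_ne_zero ((_root_.map_ne_zero _).2 hcω) hA0
    have h4 : ord P (algebraMap C L (ω - c) * aeval t A) = 0 := by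
      rw [ord_mul P ((_root_.map_ne_zero _).2 hcω) hA0, ord_const, hAo, add_zero]
    rw [h2, (ord_add_of_lt h3 (Or.inr (by rw [h4]; omega))).2, h4]
  have h5 := ord_prod_eq P (nthRootsFinset p (1 : L)) (fun ω => T - ω * aeval t A) hfac
  rw [hprod, Finset.sum_eq_single_of_mem _ (hmem ω hω) hother, ord_mul P (pow_ne_zero _ ht) hV0,
    hVo, add_zero, ord_pow] at h5
  exact h5.symm

/-- `(T - A) / (T - ζ A)` -/
def HL (ζ : C) (A : C[X]) (t T : L) : L :=
  (T - aeval t A) / (T - algebraMap C L ζ * aeval t A)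

theorem HL_ord (d : Dat p h l ζ κ Y0 ρ A V) (hp : p.Prime) (hζ : IsPrimitiveRoot ζ p)
    {t T : L} (ht : t ≠ 0) (hT : T ^ p = aeval t (Ph h κ ρ)) {P : Plk C L} {a : C} (ha : ‖a‖ ≤ 1)
    (haP : 0 < ord P (t - algebraMap C L a)) : HL ζ A t T ≠ 0 ∧ (l : ℤ) ∣ ord P (HL ζ A t T) := by
  obtain ⟨h1, h1'⟩ := ord_factor d hp hζ ht hT ha haP (ω := 1) (one_pow _)
  obtain ⟨h2, h2'⟩ := ord_factor d hp hζ ht hT ha haP (ω := ζ) hζ.pow_eq_one
  rw [map_one, one_mul] at h1 h1'
  refine ⟨div_ne_zero h1 h2, ?_⟩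
  have h3 : (l : ℤ) ∣ ord P (T - aeval t A) := by
    rcases h1' with h | h <;> rw [h]
    · exact dvd_zero _
    · exact dvd_mul_right _ _
  have h4 : (l : ℤ) ∣ ord P (T - algebraMap C L ζ * aeval t A) := by
    rcases h2' with h | h <;> rw [h]
    · exact dvd_zero _
    · exact dvd_mul_right _ _
  rw [HL, div_eq_mul_inv, ord_mul P h1 (inv_ne_zero h2), ord_inv]
  exact dvd_add h3 ((dvd_neg).2 h4)

variable [Algebra (RatFunc C) L] [IsScalarTower C (RatFunc C) L] [FiniteDimensional (RatFunc C) L]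

/-- the coordinate in `L` -/
abbrev tL' (C : Type u) [NontriviallyNormedField C] (L : Type v) [Field L]
    [Algebra (RatFunc C) L] : L := algebraMap (RatFunc C) L RatFunc.X

lemma tL'_ne_zero : tL' C L ≠ 0 := (_root_.map_ne_zero _).2 RatFunc.X_ne_zero

lemma aeval_tL' (G : C[X]) :
    aeval (tL' C L) G = algebraMap (RatFunc C) L (algebraMap C[X] (RatFunc C) G) := by
  rw [tL', Polynomial.aeval_algebraMap_apply, ← RatFunc.algebraMap_X,
    Polynomial.aeval_algebraMap_apply, Polynomial.aeval_X_left_apply]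

lemma pos_of_down {P : Plk C L} {a : C}
    (ha : 0 < ord (down (RatFunc C) P) (RatFunc.X - RatFunc.C a)) :
    0 < ord P (tL' C L - algebraMap C L a) := by
  have h1 : tL' C L - algebraMap C L a = algebraMap (RatFunc C) L (RatFunc.X - RatFunc.C a) := by
    rw [map_sub, IsScalarTower.algebraMap_apply C (RatFunc C) L]
    rfl
  rw [h1, ord_algebraMap]
  exact mul_pos (by exact_mod_cast ram_pos P) ha

/-- all orders of the glued element are divisible by `l` -/
theorem ord_glued (d : Dat p h l ζ κ Y0 ρ A V) (hp : p.Prime) (hl : 0 < l)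
    (hζ : IsPrimitiveRoot ζ p)
    {T : L} (hT : T ^ p = aeval (tL' C L) (Ph h κ ρ)) {x : L} (hx : x ≠ 0)
    {s : F1 C ⊗[RatFunc C] L}
    (hs : (1 : F1 C) ⊗ₜ[RatFunc C] x = ((1 : F1 C) ⊗ₜ[RatFunc C] HL ζ A (tL' C L) T) * s ^ l)
    {r : F2 C ⊗[RatFunc C] L} (hr : (1 : F2 C) ⊗ₜ[RatFunc C] x = r ^ l) (P : Plk C L) :
    (l : ℤ) ∣ ord P x := by
  by_cases hP : down (RatFunc C) P ∈ Inn C 1
  · obtain ⟨a, ha, haP⟩ := hP
    rw [norm_one] at ha
    obtain ⟨h1, h2⟩ := HL_ord d hp hζ tL'_ne_zero hT ha (pos_of_down haP)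
    have hP' : down (RatFunc C) P ∈ Inn C 1 := ⟨a, by rwa [norm_one], haP⟩
    have h3 : (1 : F1 C) ⊗ₜ[RatFunc C] (x / HL ζ A (tL' C L) T) = s ^ l := by
      have h4 : (1 : F1 C) ⊗ₜ[RatFunc C] (x / HL ζ A (tL' C L) T) *
          ((1 : F1 C) ⊗ₜ[RatFunc C] HL ζ A (tL' C L) T) = (1 : F1 C) ⊗ₜ[RatFunc C] x := by
        rw [Algebra.TensorProduct.tmul_mul_tmul, mul_one, div_mul_cancel₀ _ h1]
      rw [hs] at h4
      exact (isUnit_one_tmul h1).mul_left_cancel ((mul_comm _ _).trans h4)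
    have h5 := (side1 (C := C)).dvd_of_pow P hP' (x := x / HL ζ A (tL' C L) T)
      (div_ne_zero hx h1) hl (z := s) (by rw [h3, sub_self]; exact Ideal.zero_mem _)
    rw [div_eq_mul_inv, ord_mul P hx (inv_ne_zero h1), ord_inv] at h5
    have h6 := dvd_add h5 h2
    rwa [neg_add_cancel_right] at h6
  · exact (side2 (C := C)).dvd_of_pow P hP hx hl (z := r) (by rw [hr, sub_self]; exact Ideal.zero_mem _)

/-- from orders to arbitrary valuation rings -/
theorem val_of_ord {x : L} (hx : x ≠ 0) {l : ℕ} (hl : ∀ P : Plk C L, (l : ℤ) ∣ ord P x)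
    {E : Type*} [Field E] (ψ : L →+* E) (O : ValuationSubring E)
    (hO : ∀ c : C, ψ (algebraMap C L c) ∈ O) :
    ∃ z : E, z ≠ 0 ∧ O.valuation (ψ x) = O.valuation z ^ l := by
  have hone : ∀ u : L, u ≠ 0 → ψ u ∈ O → ψ u⁻¹ ∈ O → O.valuation (ψ u) = 1 := by
    intro u hu h1 h2
    have h3 := (O.valuation_le_one_iff _).2 h1
    have h4 := (O.valuation_le_one_iff _).2 h2
    rw [map_inv₀, map_inv₀] at h4
    have h5 : O.valuation (ψ u) ≠ 0 := by
      rw [Valuation.ne_zero_iff]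
      exact (_root_.map_ne_zero ψ).2 hu
    exact le_antisymm h3 ((inv_le_one₀ (zero_lt_iff.2 h5)).1 h4)
  by_cases htop : O.comap ψ = ⊤
  · refine ⟨1, one_ne_zero, ?_⟩
    have h1 : ∀ u : L, ψ u ∈ O := fun u => by
      have h2 : u ∈ O.comap ψ := by rw [htop]; exact ValuationSubring.mem_top u
      exact h2
    rw [hone x hx (h1 _) (h1 _), map_one, one_pow]
  · let P : Plk C L := ⟨O.comap ψ, hO, htop⟩
    obtain ⟨k, hk⟩ := hl P
    obtain ⟨π, hπ0, hπ⟩ := exists_unif P
    have hπl : π ^ ((l : ℤ) * k) ≠ 0 := zpow_ne_zero _ hπ0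
    have hu : ord P (x / π ^ ((l : ℤ) * k)) = 0 := by
      rw [div_eq_mul_inv, ord_mul P hx (inv_ne_zero hπl), ord_inv, ord_zpow, hπ, hk]
      ring
    have hu0 : x / π ^ ((l : ℤ) * k) ≠ 0 := div_ne_zero hx hπl
    have h1 : x / π ^ ((l : ℤ) * k) ∈ P.1 := (mem_iff_ord _ _).2 (Or.inr hu.ge)
    have h2 : (x / π ^ ((l : ℤ) * k))⁻¹ ∈ P.1 := (mem_iff_ord _ _).2 (Or.inr (by rw [ord_inv, hu]; rfl))
    have h3 := hone _ hu0 h1 h2
    refine ⟨ψ (π ^ k), (_root_.map_ne_zero ψ).2 (zpow_ne_zero _ hπ0), ?_⟩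
    have h4 : x = (x / π ^ ((l : ℤ) * k)) * (π ^ k) ^ l := by
      rw [← zpow_natCast (π ^ k) l, ← zpow_mul, mul_comm k, div_mul_cancel₀ _ hπl]
    conv_lhs => rw [h4]
    rw [map_mul, map_mul, h3, one_mul, map_pow, map_pow]

end Main

end

end P025H222
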