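import Vale.Agent.P025.R2.H222.Def

/-!
# P025 G-LA-b, piece P5: the map `L → B`
-/

universe u v

namespace P025H222

open Polynomial P025H373 P025H552 TensorProduct P025H572

noncomputable section

set_option linter.unusedSectionVars false

variable {C : Type u} [NontriviallyNormedField C] [IsUltrametricDist C] [CompleteSpace C]
  [IsAlgClosed C] [CharZero C]

variable {p h l : ℕ} {ζ κ Y0 ρ : C} {A V : C[X]}

/-- `s ^ e` is not a constant -/
lemma s2_pow_ne {e : ℕ} (he : e ≠ 0) (c : C) : s2 C ^ e ≠ algebraMap C (F2 C) c := by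
  intro h0
  have h1 := congrArg (algebraMap (F2 C) (F0 C)) h0
  rw [map_pow, coe_s2, coe_const] at h1
  have htt : tt C ≠ 0 := P025H373.tt_ne_zero
  have h2 : aeval (tt C) (Polynomial.C c * X ^ e - 1 : C[X]) = 0 := by
    rw [map_sub, map_mul, map_pow, aeval_X, aeval_C, map_one, ← h1, inv_pow,
      inv_mul_cancel₀ (pow_ne_zero _ htt), sub_self]
  have h3 := aeval_inj.1 h2
  have h4 := congrArg (Polynomial.eval 0) h3
  simp [he] at h4

lemma of_xb (q e : ℕ) (b : C) : AdjoinRoot.of (X ^ q - Polynomial.C (xb b e)) (xb b e) =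
    1 + AdjoinRoot.of _ (algebraMap C (F2 C) b * s2 C ^ e) :=
  (congrArg (AdjoinRoot.of (X ^ q - Polynomial.C (xb b e)))
    (show xb b e = 1 + algebraMap C (F2 C) b * s2 C ^ e from rfl)).trans
    (by rw [map_add, map_one])

/-- no non-unit: a constant `τ` in a residue field of `B` is impossible -/
lemma not_const {q e : ℕ} {b : C} (hb : b ≠ 0) (he : e ≠ 0) (hq : q = p * h) {E : Type v}
    [Field E] [Algebra C E] (π : BB q e b →+* E)
    (hπ : ∀ c, π (cst q (xb b e) c) = algebraMap C E c)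
    {τ : BB q e b}
    (hτ : cst q (xb b e) Y0 * (1 + cst q (xb b e) ρ * τ) = AdjoinRoot.root _ ^ p)
    (a : C) (ha : π τ = algebraMap C E a) : False := by
  have h1 := congrArg π hτ
  rw [map_mul, map_add, map_mul, map_one, ha, hπ, hπ, map_pow] at h1
  have h2 : π (AdjoinRoot.root _) ^ (p * h) = π (AdjoinRoot.of _ (xb b e)) := by
    rw [← hq, ← map_pow, root_pow]
  rw [pow_mul, ← h1, of_xb, map_add, map_one, map_mul, map_mul] at h2
  have h3 : π (AdjoinRoot.of _ (algebraMap C (F2 C) b)) = algebraMap C E b := hπ b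
  have h4 : π (AdjoinRoot.of _ (s2 C ^ e)) =
      algebraMap C E (((Y0 * (1 + ρ * a)) ^ h - 1) / b) := by
    have hb' : algebraMap C E b ≠ 0 := (_root_.map_ne_zero _).2 hb
    have h6 : algebraMap C E (((Y0 * (1 + ρ * a)) ^ h - 1) / b) =
        ((algebraMap C E Y0 * (1 + algebraMap C E ρ * algebraMap C E a)) ^ h - 1) /
          algebraMap C E b := by
      simp only [map_div₀, map_sub, map_pow, map_mul, map_add, map_one]
    rw [h6, eq_div_iff hb', h2, ← h3]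
    ring
  have h5 : (π.comp (AdjoinRoot.of _)) (s2 C ^ e) = (π.comp (AdjoinRoot.of _))
      (algebraMap C (F2 C) (((Y0 * (1 + ρ * a)) ^ h - 1) / b)) := by
    change π (AdjoinRoot.of _ (s2 C ^ e)) = π (cst q (xb b e) _)
    rw [h4, hπ]
  exact s2_pow_ne he _ ((π.comp (AdjoinRoot.of _)).injective h5)

/-- P5 : the map `L → B` -/
theorem exists_psi (d : Dat p h l ζ κ Y0 ρ A V) (hp : p ≠ 0) (_hh : h ≠ 0) {b γ : C}
    {q e e' : ℕ}
    (hq : q = p * h) (he : e = e' * p) (he' : e' ≠ 0) (hb : b ≠ 0)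
    (hγ : γ ^ p * Y0 = b * (κ - 1)) :
    ∃ ψ : LL C p h κ ρ →+* BB q e b, IsPsi p h κ Y0 ρ γ b q e e' ψ := by
  have he0 : e ≠ 0 := by rw [he]; exact mul_ne_zero he' hp
  set c0 : C →+* BB q e b := cst q (xb b e) with hc0
  set τ : BB q e b := (c0 Y0⁻¹ * AdjoinRoot.root _ ^ p - 1) * c0 ρ⁻¹ with hτ
  have hρ : c0 ρ * c0 ρ⁻¹ = 1 := by rw [← map_mul, mul_inv_cancel₀ d.rne, map_one]
  have hY : c0 Y0 * c0 Y0⁻¹ = 1 := by rw [← map_mul, mul_inv_cancel₀ d.yne, map_one]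
  have h1 : 1 + c0 ρ * τ = c0 Y0⁻¹ * AdjoinRoot.root _ ^ p := by
    rw [hτ]
    linear_combination (c0 Y0⁻¹ * AdjoinRoot.root _ ^ p - 1) * hρ
  have hτr : c0 Y0 * (1 + c0 ρ * τ) = AdjoinRoot.root _ ^ p := by
    rw [h1]
    linear_combination (AdjoinRoot.root _ ^ p) * hY
  have hunit : ∀ G : C[X], G ≠ 0 → IsUnit (eval₂ c0 τ G) := by
    intro G hG
    by_contra hnu
    obtain ⟨N, hN, hmem⟩ := exists_max_ideal_of_mem_nonunits (mem_nonunits_iff.2 hnu)
    let fE : Field (BB q e b ⧸ N) := Ideal.Quotient.field N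
    let aE : Algebra C (BB q e b ⧸ N) := ((Ideal.Quotient.mk N).comp c0).toAlgebra
    have hz : aeval (Ideal.Quotient.mk N τ) G = 0 := by
      have h2 := (Ideal.Quotient.eq_zero_iff_mem).2 hmem
      rw [hom_eval₂] at h2
      exact h2
    have halg : IsIntegral C (Ideal.Quotient.mk N τ) :=
      (show IsAlgebraic C (Ideal.Quotient.mk N τ) from ⟨G, hG, hz⟩).isIntegral
    obtain ⟨a, ha⟩ := minpoly.mem_range_of_degree_eq_one C (Ideal.Quotient.mk N τ)
      (IsAlgClosed.degree_eq_one_of_irreducible C (minpoly.irreducible halg))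
    exact not_const (p := p) (h := h) (Y0 := Y0) (ρ := ρ) hb he0 hq (Ideal.Quotient.mk N)
      (fun c => rfl) hτr a ha.symm
  obtain ⟨j, hj⟩ : ∃ j : RatFunc C →+* BB q e b,
      ∀ G : C[X], j (algebraMap C[X] (RatFunc C) G) = eval₂ c0 τ G :=
    ⟨IsLocalization.lift (M := nonZeroDivisors C[X]) (g := eval₂RingHom c0 τ)
      (fun y => hunit _ (nonZeroDivisors.ne_zero y.2)), fun G => IsLocalization.lift_eq _ _⟩
  have hQ : eval₂ c0 τ (Qp h Y0 ρ) = AdjoinRoot.of _ (algebraMap C (F2 C) b * s2 C ^ e) := by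
    rw [Qp, eval₂_sub, eval₂_mul, eval₂_pow, eval₂_add, eval₂_mul, eval₂_C, eval₂_C, eval₂_X,
      eval₂_one, map_pow, ← mul_pow, hτr, ← pow_mul, ← hq, root_pow, of_xb,
      add_sub_cancel_left]
  have hP : eval₂ c0 τ (Ph h κ ρ) =
      (c0 γ * AdjoinRoot.of _ (s2 C ^ e') * AdjoinRoot.root _) ^ p := by
    have h2 : c0 γ ^ p * c0 Y0 = AdjoinRoot.of _ (algebraMap C (F2 C) b) * c0 (κ - 1) := by
      rw [← map_pow, ← map_mul, hγ, map_mul]
      rfl
    have h4 : AdjoinRoot.of (X ^ q - Polynomial.C (xb b e)) (s2 C ^ e') ^ p =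
        AdjoinRoot.of _ (s2 C ^ e) := by
      rw [← map_pow, ← pow_mul, ← he]
    rw [Ph_eq ρ d.yh, eval₂_mul, eval₂_mul, eval₂_add, eval₂_mul, eval₂_C, eval₂_C, eval₂_X,
      eval₂_one, hQ, h1, mul_pow, mul_pow, h4]
    rw [map_mul (AdjoinRoot.of _)]
    have h3 : c0 (κ - 1) * AdjoinRoot.of _ (algebraMap C (F2 C) b) * c0 Y0⁻¹ = c0 γ ^ p := by
      linear_combination (-c0 Y0⁻¹) * h2 + c0 γ ^ p * hY
    linear_combination (AdjoinRoot.root _ ^ p * AdjoinRoot.of _ (s2 C ^ e)) * h3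
  have hθ : eval₂ j (c0 γ * AdjoinRoot.of _ (s2 C ^ e') * AdjoinRoot.root _)
      (X ^ p - Polynomial.C (algebraMap C[X] (RatFunc C) (Ph h κ ρ)) : (RatFunc C)[X]) = 0 := by
    rw [eval₂_sub, eval₂_X_pow, eval₂_C, hj, hP, sub_self]
  obtain ⟨ψ, hψ1, hψ2⟩ : ∃ ψ : LL C p h κ ρ →+* BB q e b,
      (∀ f : RatFunc C, ψ (algebraMap (RatFunc C) (LL C p h κ ρ) f) = j f) ∧
      ψ (AdjoinRoot.root _) = c0 γ * AdjoinRoot.of _ (s2 C ^ e') * AdjoinRoot.root _ :=
    ⟨AdjoinRoot.lift j _ hθ, fun f => AdjoinRoot.lift_of hθ, AdjoinRoot.lift_root hθ⟩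
  have hjX : j RatFunc.X = τ := by
    have := hj X
    rwa [RatFunc.algebraMap_X, eval₂_X] at this
  refine ⟨ψ, ⟨fun c => ?_, ?_, hψ2⟩⟩
  · have h2 : algebraMap C (RatFunc C) c = algebraMap C[X] (RatFunc C) (Polynomial.C c) := by
      rw [RatFunc.algebraMap_C]
      rfl
    rw [IsScalarTower.algebraMap_apply C (RatFunc C) (LL C p h κ ρ), hψ1, h2, hj, eval₂_C]
  · have h3 : ψ (algebraMap (RatFunc C) (LL C p h κ ρ) RatFunc.X) = τ := (hψ1 _).trans hjX
    rw [h3]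
    exact hτr

end

end P025H222
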